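import Vale.Agent.P171.Final

/-!
# A stable, tempered radial pair potential on `ℝ³` with a phase transition

The statement follows the setting of problem P171 word by word: a radial pair potential is a
Borel measurable function `φ` of the distance, locally bounded on `(0,∞)` (its values at
nonpositive arguments are irrelevant); stability, temperedness, the canonical partition functions
`Z_{L,N}(β)`, the grand canonical sum and the limit `Π(β,z)` are those of the problem file, and the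
phase transition is criterion (a): `z ↦ Π(β,z)` fails to be differentiable at some point.
-/

namespace Vale.Agent.Results.P171.PhaseTransition

open MeasureTheory Filter Topology Set

/-- Euclidean three-space, with the Euclidean distance and Lebesgue measure. -/
abbrev Space : Type := EuclideanSpace ℝ (Fin 3)

/-- The energy `U_N(x_1,…,x_N) = ∑_{i<j} φ(|x_i - x_j|)`. -/
noncomputable def energy (φ : ℝ → ℝ) {N : ℕ} (x : Fin N → Space) : ℝ :=
  ∑ i : Fin N, ∑ j ∈ Finset.Ioi i, φ (dist (x i) (x j))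

/-- `φ` is bounded on every compact interval contained in `(0,∞)`. -/
def LocallyBounded (φ : ℝ → ℝ) : Prop :=
  ∀ s t : ℝ, 0 < s → s ≤ t → ∃ M : ℝ, ∀ r ∈ Icc s t, |φ r| ≤ M

/-- Stability: `U_N ≥ -B N` for all configurations of distinct points. -/
def Stable (φ : ℝ → ℝ) : Prop :=
  ∃ B : ℝ, ∀ (N : ℕ) (x : Fin N → Space), Function.Injective x → -(B * N) ≤ energy φ x

/-- Temperedness: `φ(r) ≤ C r^{-3-ε}` for `r ≥ R₀`. -/
def Tempered (φ : ℝ → ℝ) : Prop :=
  ∃ C ε R₀ : ℝ, 0 < C ∧ 0 < ε ∧ 0 < R₀ ∧ ∀ r : ℝ, R₀ ≤ r → φ r ≤ C * r ^ (-3 - ε)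

/-- Configurations of `N` points in the cube `Λ_L = [0,L]³`. -/
def cubeConf (L : ℝ) (N : ℕ) : Set (Fin N → Space) := {x | ∀ i c, x i c ∈ Icc 0 L}

/-- The partition function `Z_{L,N}(β) = (1/N!) ∫_{Λ_L^N} exp(-β U_N)`. -/
noncomputable def Z (φ : ℝ → ℝ) (β L : ℝ) (N : ℕ) : ℝ :=
  (N.factorial : ℝ)⁻¹ * ∫ x in cubeConf L N, Real.exp (-(β * energy φ x))

/-- The grand canonical partition function `∑_N z^N Z_{L,N}(β)`. -/
noncomputable def grandZ (φ : ℝ → ℝ) (β z L : ℝ) : ℝ := ∑' N : ℕ, z ^ N * Z φ β L N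

/-- `Pr` is the function `z ↦ Π(β,z)` on `(0,∞)`: all integrals and sums converge, and
`Pr z = lim_{L→∞} L^{-3} log ∑_N z^N Z_{L,N}(β)` for every `z > 0`. -/
def IsPressure (φ : ℝ → ℝ) (β : ℝ) (Pr : ℝ → ℝ) : Prop :=
  (∀ L N, IntegrableOn (fun x : Fin N → Space => Real.exp (-(β * energy φ x))) (cubeConf L N)) ∧
  ∀ z : ℝ, 0 < z → (∀ L : ℝ, Summable fun N : ℕ => z ^ N * Z φ β L N) ∧
    Tendsto (fun L : ℝ => (L ^ 3)⁻¹ * Real.log (grandZ φ β z L)) atTop (𝓝 (Pr z))

/-- There is a Borel measurable, locally bounded, stable and tempered radial pair potential on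
`ℝ³` (moreover absolutely integrable at infinity) which has a phase transition: for some `β > 0`
the function `z ↦ Π(β,z)` is not differentiable at some point `z₀ > 0`. -/
theorem result :
    ∃ φ : ℝ → ℝ, Measurable φ ∧ LocallyBounded φ ∧ Stable φ ∧ Tempered φ ∧
      IntegrableOn (fun r : ℝ => r ^ 2 * φ r) (Ioi 1) ∧
      ∃ β : ℝ, 0 < β ∧ ∃ Pr : ℝ → ℝ, IsPressure φ β Pr ∧
        ∃ z₀ : ℝ, 0 < z₀ ∧ ¬ DifferentiableAt ℝ Pr z₀ := by
  obtain ⟨a, ha0, ha, μ, hμ⟩ := Vale.Agent.P171.exists_not_differentiable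
  refine ⟨Vale.Agent.P171.phi a, Vale.Agent.P171.measurable_phi a, ?_,
    Vale.Agent.P171.stable_sum ha0 ha, ?_, Vale.Agent.P171.integrableOn_phi ha0 ha,
    1, one_pos, fun z => Vale.Agent.P171.P (Real.log z) a, ⟨?_, ?_⟩, Real.exp μ,
    Real.exp_pos μ, Vale.Agent.P171.not_differentiable_log hμ⟩
  · intro s t hs _
    exact ⟨_, fun r hr => Vale.Agent.P171.phi_bdd ha0 ha hs hr.1⟩
  · refine ⟨1, 1, 1, one_pos, one_pos, one_pos, fun r hr => ?_⟩
    exact (Vale.Agent.P171.phi_nonpos ha0 hr).trans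
      (by have : 0 < r := by linarith
          positivity)
  · exact fun L N => Vale.Agent.P171.integrable_boltzmann ha0 ha L N
  · exact fun z hz => ⟨fun L => Vale.Agent.P171.summable_Zr ha0 ha hz L,
      Vale.Agent.P171.tendsto_Zr ha0 ha hz⟩

end Vale.Agent.Results.P171.PhaseTransition
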